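import Vale.Agent.P091.T8.Props

/-!
# P091, row T8: the quadratic and the Huber potential (helper862)

`tot : P_TOT`, `low : P_LOW`.
-/

set_option autoImplicit false

open Finset Real

noncomputable section

namespace Vale.Agent.P091.T8.H862

open Vale.Agent.P091.H413 (Node S Lf S_add S_smul S_mono S_nonneg S_tele2)
open Vale.Agent.P091.T8

/-! ### elementary inequalities -/

theorem amgm {a da z : ℝ} (ha : 0 ≤ a) (hd : |da| ≤ a) :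
    2 * (|da| * z) ≤ da ^ 2 / a + a * z ^ 2 := by
  rcases eq_or_lt_of_le ha with h | h
  · rw [← h] at hd
    have h0 : da = 0 := abs_nonpos_iff.1 hd
    rw [h0, ← h]
    simp
  · have h1 : da ^ 2 / a + a * z ^ 2 - 2 * (|da| * z) = (|da| - a * z) ^ 2 / a := by
      rw [← sq_abs da]
      field_simp
      ring
    have h2 : 0 ≤ (|da| - a * z) ^ 2 / a := by positivity
    linarith

theorem tot_one {a da : ℝ} (ha : 0 ≤ a) (hd : |da| ≤ a) {B Z : ℂ} (hB : ‖B‖ ≤ 2) :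
    a * ‖Z‖ ^ 2 ≤ 4 / 3 * (((a + da) * ‖B + Z‖ ^ 2 + (a - da) * ‖B - Z‖ ^ 2) / 2 - a * ‖B‖ ^ 2)
      + 64 / 3 * (da ^ 2 / a) := by
  have e1 : ‖B + Z‖ ^ 2 = ‖B‖ ^ 2 + 2 * inner ℝ B Z + ‖Z‖ ^ 2 := norm_add_sq_real B Z
  have e2 : ‖B - Z‖ ^ 2 = ‖B‖ ^ 2 - 2 * inner ℝ B Z + ‖Z‖ ^ 2 := norm_sub_sq_real B Z
  have h1 : |da * inner ℝ B Z| ≤ |da| * (2 * ‖Z‖) := by
    rw [abs_mul]
    refine mul_le_mul_of_nonneg_left ?_ (abs_nonneg _)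
    exact (abs_real_inner_le_norm B Z).trans (mul_le_mul_of_nonneg_right hB (norm_nonneg _))
  have h2 := amgm (z := ‖Z‖ / 8) ha hd
  have h3 := (abs_le.1 h1).1
  rw [e1, e2]
  nlinarith [h1, h2, h3]

/-- the Huber function -/
def hub (s t : ℝ) : ℝ := if t ≤ s then t ^ 2 else 2 * s * t - s ^ 2

theorem hub_ge {s c : ℝ} (hc : c ≤ s) (t : ℝ) : 2 * c * t - c ^ 2 ≤ hub s t := by
  unfold hub
  split_ifs with h
  · nlinarith [sq_nonneg (t - c)]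
  · have : s < t := not_le.1 h
    nlinarith [mul_nonneg (sub_nonneg.2 hc) (by linarith : (0 : ℝ) ≤ 2 * t - s - c)]

theorem hub_eq {s t : ℝ} (hs : 0 ≤ s) (ht : 0 ≤ t) :
    ∃ c, 0 ≤ c ∧ c ≤ s ∧ hub s t = 2 * c * t - c ^ 2 := by
  by_cases h : t ≤ s
  · refine ⟨t, ht, h, ?_⟩
    unfold hub
    rw [if_pos h]
    ring
  · refine ⟨s, hs, le_rfl, ?_⟩
    unfold hub
    rw [if_neg h]

theorem hub_nonneg {s t : ℝ} (hs : 0 ≤ s) : 0 ≤ hub s t := by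
  have := hub_ge (c := 0) hs t
  simpa using this

theorem hub_le {s t : ℝ} (hs : 0 ≤ s) (ht : 0 ≤ t) : hub s t ≤ 2 * s * t := by
  obtain ⟨c, h1, h2, h3⟩ := hub_eq hs ht
  rw [h3]
  nlinarith [mul_le_mul_of_nonneg_right h2 ht, sq_nonneg c]

theorem hub_lip {s : ℝ} (hs : 0 ≤ s) (z w : ℂ) :
    hub s ‖z‖ - hub s ‖w‖ ≤ 2 * s * ‖z - w‖ := by
  obtain ⟨c, h1, h2, h3⟩ := hub_eq hs (norm_nonneg z)
  have h4 := hub_ge h2 ‖w‖
  have h5 : ‖z‖ - ‖w‖ ≤ ‖z - w‖ := norm_sub_norm_le z w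
  have h6 : c * (‖z‖ - ‖w‖) ≤ c * ‖z - w‖ := mul_le_mul_of_nonneg_left h5 h1
  have h7 : c * ‖z - w‖ ≤ s * ‖z - w‖ := mul_le_mul_of_nonneg_right h2 (norm_nonneg _)
  rw [h3]
  linarith

theorem hub_conv {s : ℝ} (hs : 0 ≤ s) (B Z : ℂ) :
    hub s ‖B‖ ≤ (hub s ‖B + Z‖ + hub s ‖B - Z‖) / 2 := by
  obtain ⟨c, h1, h2, h3⟩ := hub_eq hs (norm_nonneg B)
  have h4 := hub_ge h2 ‖B + Z‖
  have h5 := hub_ge h2 ‖B - Z‖
  have h6 : 2 * ‖B‖ ≤ ‖B + Z‖ + ‖B - Z‖ := by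
    have h7 := norm_add_le (B + Z) (B - Z)
    have h8 : B + Z + (B - Z) = (2 : ℂ) * B := by ring
    rw [h8, norm_mul] at h7
    have h9 : ‖(2 : ℂ)‖ = 2 := by norm_num
    rwa [h9] at h7
  have h7 : c * (2 * ‖B‖) ≤ c * (‖B + Z‖ + ‖B - Z‖) := mul_le_mul_of_nonneg_left h6 h1
  rw [h3]
  linarith

open Classical in
theorem low_one {a da s : ℝ} (ha : 0 ≤ a) (hd : |da| ≤ a) (hs : 0 ≤ s) (B Z : ℂ) (p : Prop)
    (hp : p → ‖B‖ ≤ s ∧ ‖B + Z‖ ≤ s ∧ ‖B - Z‖ ≤ s) :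
    (if p then a * ‖Z‖ ^ 2 else 0) ≤
      (((a + da) * hub s ‖B + Z‖ + (a - da) * hub s ‖B - Z‖) / 2 - a * hub s ‖B‖)
      + s * (da ^ 2 / a + a * ‖Z‖ ^ 2) := by
  have h1 : |hub s ‖B + Z‖ - hub s ‖B - Z‖| ≤ 4 * s * ‖Z‖ := by
    have e1 := hub_lip hs (B + Z) (B - Z)
    have e2 := hub_lip hs (B - Z) (B + Z)
    have e3 : B + Z - (B - Z) = 2 * Z := by ring
    have e4 : B - Z - (B + Z) = -(2 * Z) := by ring
    have e5 : ‖(2 : ℂ)‖ = 2 := by norm_num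
    rw [e3, norm_mul, e5] at e1
    rw [e4, norm_neg, norm_mul, e5] at e2
    exact abs_le.2 ⟨by linarith, by linarith⟩
  have h2 : |da * (hub s ‖B + Z‖ - hub s ‖B - Z‖)| ≤ 2 * s * (2 * (|da| * ‖Z‖)) := by
    rw [abs_mul]
    calc |da| * |hub s ‖B + Z‖ - hub s ‖B - Z‖| ≤ |da| * (4 * s * ‖Z‖) :=
          mul_le_mul_of_nonneg_left h1 (abs_nonneg _)
      _ = 2 * s * (2 * (|da| * ‖Z‖)) := by ring
  have h3 := mul_le_mul_of_nonneg_left (amgm (z := ‖Z‖) ha hd) hs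
  have h4 := (abs_le.1 h2).1
  have h5 : (if p then a * ‖Z‖ ^ 2 else 0) ≤
      a * ((hub s ‖B + Z‖ + hub s ‖B - Z‖) / 2 - hub s ‖B‖) := by
    split_ifs with h
    · obtain ⟨g1, g2, g3⟩ := hp h
      have e1 : ‖B + Z‖ ^ 2 = ‖B‖ ^ 2 + 2 * inner ℝ B Z + ‖Z‖ ^ 2 := norm_add_sq_real B Z
      have e2 : ‖B - Z‖ ^ 2 = ‖B‖ ^ 2 - 2 * inner ℝ B Z + ‖Z‖ ^ 2 := norm_sub_sq_real B Z
      unfold hub
      rw [if_pos g1, if_pos g2, if_pos g3, e1, e2]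
      exact le_of_eq (by ring)
    · exact mul_nonneg ha (sub_nonneg.2 (hub_conv hs B Z))
  linarith

/-! ### the tree -/

variable {K : Type} [Fintype K] {d : YD} {x : XD K} {D ρ : ℝ}

theorem E_nonneg (hx : x.Ok d.n) (v : Node) :
    0 ≤ ∑ κ, x.dα d.n κ v ^ 2 / x.α d.n κ v :=
  Finset.sum_nonneg fun κ _ => div_nonneg (sq_nonneg _) (XD.α_nonneg hx κ v)

/-- a weighted sum over the classes -/
theorem sum_le_of (hx : x.Ok d.n) (v : Node) {F : K → ℝ} {c : ℝ} (hc : 0 ≤ c)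
    (h : ∀ κ, F κ ≤ c) : ∑ κ, x.α d.n κ v * F κ ≤ c := by
  calc ∑ κ, x.α d.n κ v * F κ ≤ ∑ κ, x.α d.n κ v * c :=
        Finset.sum_le_sum fun κ _ => mul_le_mul_of_nonneg_left (h κ) (XD.α_nonneg hx κ v)
    _ = (∑ κ, x.α d.n κ v) * c := by rw [Finset.sum_mul]
    _ ≤ 1 * c := mul_le_mul_of_nonneg_right (XD.sum_α_le hx v) hc
    _ = c := one_mul c

omit [Fintype K] in
/-- children of a node where the class is absent -/
theorem α_off {κ : K} {v : Node} (hon : ¬ x.On κ v) : x.α d.n κ v = 0 := if_neg hon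

omit [Fintype K] in
theorem dα_off {κ : K} {v : Node} (hon : ¬ x.On κ v) : x.dα d.n κ v = 0 := if_neg hon

theorem tot_strong (hd : d.Ok D ρ) (hx : x.Ok d.n) :
    S d.n (fun v => ∑ κ, x.α d.n κ v * ‖d.dB (x.ξ κ) v‖ ^ 2) [] ≤
      112 / 3 + 64 / 3 * S d.n (fun v => ∑ κ, x.dα d.n κ v ^ 2 / x.α d.n κ v) [] := by
  have h1 := S_tele2 d.n (f := fun v => ∑ κ, x.α d.n κ v * ‖d.dB (x.ξ κ) v‖ ^ 2)
    (g := fun v => 64 / 3 * ∑ κ, x.dα d.n κ v ^ 2 / x.α d.n κ v)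
    (Φ := fun v => 4 / 3 * ∑ κ, x.α d.n κ v * ‖d.Bd (x.ξ κ) v‖ ^ 2)
    (Φ' := fun v => 4 / 3 * ∑ κ, x.α d.n κ v * ‖d.Ba (x.ξ κ) v‖ ^ 2)
    (ℓ := fun v => 8 * d.h v) (c := 64 / 3) (by norm_num) [] ?_ ?_ ?_ ?_ ?_
  · rw [S_smul, S_smul] at h1
    have h2 := YD.S_h_le hd
    linarith
  · intro v hv
    have hv' : v.length < d.n := by simpa using hv
    have e1 : (4 / 3 * ∑ κ, x.α d.n κ (true :: v) * ‖d.Ba (x.ξ κ) (true :: v)‖ ^ 2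
        + 4 / 3 * ∑ κ, x.α d.n κ (false :: v) * ‖d.Ba (x.ξ κ) (false :: v)‖ ^ 2) / 2
        - 4 / 3 * ∑ κ, x.α d.n κ v * ‖d.Bd (x.ξ κ) v‖ ^ 2
        + 64 / 3 * ∑ κ, x.dα d.n κ v ^ 2 / x.α d.n κ v
        = ∑ κ, (4 / 3 * ((x.α d.n κ (true :: v) * ‖d.Ba (x.ξ κ) (true :: v)‖ ^ 2
          + x.α d.n κ (false :: v) * ‖d.Ba (x.ξ κ) (false :: v)‖ ^ 2) / 2
          - x.α d.n κ v * ‖d.Bd (x.ξ κ) v‖ ^ 2)
          + 64 / 3 * (x.dα d.n κ v ^ 2 / x.α d.n κ v)) := by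
      rw [Finset.sum_add_distrib, ← Finset.mul_sum, ← Finset.mul_sum, Finset.sum_sub_distrib,
        ← Finset.sum_div, Finset.sum_add_distrib]
      ring
    show ∑ κ, x.α d.n κ v * ‖d.dB (x.ξ κ) v‖ ^ 2 ≤ _
    rw [e1]
    refine Finset.sum_le_sum fun κ _ => ?_
    by_cases hon : x.On κ v
    · rw [XD.α_true hv' hon, XD.α_false hv' hon, YD.Ba_true _ hv', YD.Ba_false _ hv']
      exact tot_one (XD.α_nonneg hx κ v) (XD.abs_dα_le hx hv')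
        ((YD.norm_Bd_le hd _ v).trans (hd.gle v hv'.le))
    · rw [α_off hon, dα_off hon]
      have e2 := mul_nonneg (XD.α_nonneg hx κ (true :: v))
        (sq_nonneg ‖d.Ba (x.ξ κ) (true :: v)‖)
      have e3 := mul_nonneg (XD.α_nonneg hx κ (false :: v))
        (sq_nonneg ‖d.Ba (x.ξ κ) (false :: v)‖)
      simp only [zero_mul, div_zero, mul_zero, add_zero, sub_zero]
      linarith
  · intro v _ hv
    have hv' : v.length < d.n := by simpa using hv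
    show 4 / 3 * ∑ κ, x.α d.n κ v * ‖d.Ba (x.ξ κ) v‖ ^ 2
      - 4 / 3 * ∑ κ, x.α d.n κ v * ‖d.Bd (x.ξ κ) v‖ ^ 2 ≤ 8 * d.h v
    have e1 : ∑ κ, x.α d.n κ v * ‖d.Ba (x.ξ κ) v‖ ^ 2
        - ∑ κ, x.α d.n κ v * ‖d.Bd (x.ξ κ) v‖ ^ 2
        = ∑ κ, x.α d.n κ v * (‖d.Ba (x.ξ κ) v‖ ^ 2 - ‖d.Bd (x.ξ κ) v‖ ^ 2) := by
      rw [← Finset.sum_sub_distrib]
      exact Finset.sum_congr rfl fun κ _ => by ring
    have hh := YD.h_nonneg hd v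
    have e2 : ∑ κ, x.α d.n κ v * (‖d.Ba (x.ξ κ) v‖ ^ 2 - ‖d.Bd (x.ξ κ) v‖ ^ 2) ≤ 6 * d.h v := by
      refine sum_le_of hx v (by linarith) fun κ => ?_
      have g1 : ‖d.Ba (x.ξ κ) v‖ - ‖d.Bd (x.ξ κ) v‖ ≤ d.h v :=
        (norm_sub_norm_le _ _).trans (YD.norm_Ba_sub_Bd_le hd _ v)
      have g2 : ‖d.Ba (x.ξ κ) v‖ ≤ 4 := (YD.norm_Ba_le hd _ v).trans (YD.ga_le hd hv'.le)
      have g3 : ‖d.Bd (x.ξ κ) v‖ ≤ 2 := (YD.norm_Bd_le hd _ v).trans (hd.gle v hv'.le)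
      have g4 := norm_nonneg (d.Ba (x.ξ κ) v)
      have g5 := norm_nonneg (d.Bd (x.ξ κ) v)
      have g6 : ‖d.Ba (x.ξ κ) v‖ ^ 2 - ‖d.Bd (x.ξ κ) v‖ ^ 2
          = (‖d.Ba (x.ξ κ) v‖ - ‖d.Bd (x.ξ κ) v‖) * (‖d.Ba (x.ξ κ) v‖ + ‖d.Bd (x.ξ κ) v‖) := by
        ring
      rw [g6]
      calc (‖d.Ba (x.ξ κ) v‖ - ‖d.Bd (x.ξ κ) v‖) * (‖d.Ba (x.ξ κ) v‖ + ‖d.Bd (x.ξ κ) v‖)
          ≤ d.h v * (‖d.Ba (x.ξ κ) v‖ + ‖d.Bd (x.ξ κ) v‖) :=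
            mul_le_mul_of_nonneg_right g1 (by linarith)
        _ ≤ d.h v * 6 := mul_le_mul_of_nonneg_left (by linarith) hh
        _ = 6 * d.h v := by ring
    linarith
  · intro v _
    have := YD.h_nonneg hd v
    show 0 ≤ 8 * d.h v
    linarith
  · refine mul_nonneg (by norm_num) (Finset.sum_nonneg fun κ _ =>
      mul_nonneg (XD.α_nonneg hx κ _) (sq_nonneg _))
  · intro v hv
    have hv' : v.length ≤ d.n := by simpa using hv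
    show 4 / 3 * ∑ κ, x.α d.n κ v * ‖d.Ba (x.ξ κ) v‖ ^ 2 ≤ 64 / 3
    have e1 : ∑ κ, x.α d.n κ v * ‖d.Ba (x.ξ κ) v‖ ^ 2 ≤ 16 := by
      refine sum_le_of hx v (by norm_num) fun κ => ?_
      have g2 : ‖d.Ba (x.ξ κ) v‖ ≤ 4 := (YD.norm_Ba_le hd _ v).trans (YD.ga_le hd hv')
      have g4 := norm_nonneg (d.Ba (x.ξ κ) v)
      nlinarith
    linarith

theorem tot : P_TOT := by
  intro K _ d x D ρ e1 hd hx he
  have h1 := tot_strong hd hx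
  have h2 : 0 ≤ S d.n (fun v => ∑ κ, x.dα d.n κ v ^ 2 / x.α d.n κ v) [] :=
    S_nonneg _ _ fun v _ => E_nonneg hx v
  linarith

open Classical in
theorem low_strong (hd : d.Ok D ρ) (hx : x.Ok d.n) {δ : ℝ} (hδ : 0 < δ) :
    S d.n (fun v => ∑ κ, if Low d x δ κ v then x.α d.n κ v * ‖d.dB (x.ξ κ) v‖ ^ 2 else 0) [] ≤
      δ * (592 / 3 + 268 / 3 * S d.n (fun v => ∑ κ, x.dα d.n κ v ^ 2 / x.α d.n κ v) []) := by
  have hs : (0 : ℝ) ≤ 4 * δ := by linarith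
  have h1 := S_tele2 d.n
    (f := fun v => ∑ κ, if Low d x δ κ v then x.α d.n κ v * ‖d.dB (x.ξ κ) v‖ ^ 2 else 0)
    (g := fun v => 4 * δ * ((∑ κ, x.dα d.n κ v ^ 2 / x.α d.n κ v)
      + ∑ κ, x.α d.n κ v * ‖d.dB (x.ξ κ) v‖ ^ 2))
    (Φ := fun v => ∑ κ, x.α d.n κ v * hub (4 * δ) ‖d.Bd (x.ξ κ) v‖)
    (Φ' := fun v => ∑ κ, x.α d.n κ v * hub (4 * δ) ‖d.Ba (x.ξ κ) v‖)
    (ℓ := fun v => 8 * δ * d.h v) (c := 32 * δ) (by linarith) [] ?_ ?_ ?_ ?_ ?_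
  · rw [S_smul, S_smul, S_add] at h1
    have h2 := YD.S_h_le hd
    have h3 := tot_strong hd hx
    have h4 := mul_le_mul_of_nonneg_left h3 hδ.le
    have h5 := mul_le_mul_of_nonneg_left h2 hδ.le
    linarith
  · intro v hv
    have hv' : v.length < d.n := by simpa using hv
    have e1 : (∑ κ, x.α d.n κ (true :: v) * hub (4 * δ) ‖d.Ba (x.ξ κ) (true :: v)‖
        + ∑ κ, x.α d.n κ (false :: v) * hub (4 * δ) ‖d.Ba (x.ξ κ) (false :: v)‖) / 2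
        - ∑ κ, x.α d.n κ v * hub (4 * δ) ‖d.Bd (x.ξ κ) v‖
        + 4 * δ * ((∑ κ, x.dα d.n κ v ^ 2 / x.α d.n κ v)
          + ∑ κ, x.α d.n κ v * ‖d.dB (x.ξ κ) v‖ ^ 2)
        = ∑ κ, (((x.α d.n κ (true :: v) * hub (4 * δ) ‖d.Ba (x.ξ κ) (true :: v)‖
          + x.α d.n κ (false :: v) * hub (4 * δ) ‖d.Ba (x.ξ κ) (false :: v)‖) / 2
          - x.α d.n κ v * hub (4 * δ) ‖d.Bd (x.ξ κ) v‖)
          + 4 * δ * (x.dα d.n κ v ^ 2 / x.α d.n κ v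
            + x.α d.n κ v * ‖d.dB (x.ξ κ) v‖ ^ 2)) := by
      rw [Finset.sum_add_distrib, ← Finset.mul_sum, Finset.sum_sub_distrib,
        ← Finset.sum_div, Finset.sum_add_distrib, Finset.sum_add_distrib]
    show (∑ κ, if Low d x δ κ v then x.α d.n κ v * ‖d.dB (x.ξ κ) v‖ ^ 2 else 0) ≤ _
    rw [e1]
    refine Finset.sum_le_sum fun κ _ => ?_
    by_cases hon : x.On κ v
    · rw [XD.α_true hv' hon, XD.α_false hv' hon, YD.Ba_true _ hv', YD.Ba_false _ hv']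
      refine low_one (XD.α_nonneg hx κ v) (XD.abs_dα_le hx hv') hs _ _ _ fun hp => ?_
      have g1 := hp.2 true
      have g2 := hp.2 false
      rw [YD.Ba_true _ hv'] at g1
      rw [YD.Ba_false _ hv'] at g2
      exact ⟨hp.1, g1, g2⟩
    · rw [α_off hon, dα_off hon]
      have e2 := mul_nonneg (XD.α_nonneg hx κ (true :: v))
        (hub_nonneg (t := ‖d.Ba (x.ξ κ) (true :: v)‖) hs)
      have e3 := mul_nonneg (XD.α_nonneg hx κ (false :: v))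
        (hub_nonneg (t := ‖d.Ba (x.ξ κ) (false :: v)‖) hs)
      simp only [zero_mul, ite_self, div_zero, mul_zero, add_zero, sub_zero]
      linarith
  · intro v _ hv
    show ∑ κ, x.α d.n κ v * hub (4 * δ) ‖d.Ba (x.ξ κ) v‖
      - ∑ κ, x.α d.n κ v * hub (4 * δ) ‖d.Bd (x.ξ κ) v‖ ≤ 8 * δ * d.h v
    have e1 : ∑ κ, x.α d.n κ v * hub (4 * δ) ‖d.Ba (x.ξ κ) v‖
        - ∑ κ, x.α d.n κ v * hub (4 * δ) ‖d.Bd (x.ξ κ) v‖
        = ∑ κ, x.α d.n κ v * (hub (4 * δ) ‖d.Ba (x.ξ κ) v‖ - hub (4 * δ) ‖d.Bd (x.ξ κ) v‖) := by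
      rw [← Finset.sum_sub_distrib]
      exact Finset.sum_congr rfl fun κ _ => by ring
    have hh := YD.h_nonneg hd v
    rw [e1]
    refine sum_le_of hx v (by positivity) fun κ => ?_
    have g1 := hub_lip hs (d.Ba (x.ξ κ) v) (d.Bd (x.ξ κ) v)
    have g2 := mul_le_mul_of_nonneg_left (YD.norm_Ba_sub_Bd_le hd (x.ξ κ) v)
      (by linarith : (0 : ℝ) ≤ 2 * (4 * δ))
    linarith
  · intro v _
    have := YD.h_nonneg hd v
    show 0 ≤ 8 * δ * d.h v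
    positivity
  · exact Finset.sum_nonneg fun κ _ => mul_nonneg (XD.α_nonneg hx κ _) (hub_nonneg hs)
  · intro v hv
    have hv' : v.length ≤ d.n := by simpa using hv
    show ∑ κ, x.α d.n κ v * hub (4 * δ) ‖d.Ba (x.ξ κ) v‖ ≤ 32 * δ
    refine sum_le_of hx v (by linarith) fun κ => ?_
    have g1 := hub_le hs (norm_nonneg (d.Ba (x.ξ κ) v))
    have g2 : ‖d.Ba (x.ξ κ) v‖ ≤ 4 := (YD.norm_Ba_le hd _ v).trans (YD.ga_le hd hv')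
    have g3 := mul_le_mul_of_nonneg_left g2 (by linarith : (0 : ℝ) ≤ 2 * (4 * δ))
    linarith

theorem low : P_LOW := by
  intro K _ d x D ρ δ e1 hδ hd hx he
  have h1 := low_strong hd hx hδ
  have h2 : 0 ≤ S d.n (fun v => ∑ κ, x.dα d.n κ v ^ 2 / x.α d.n κ v) [] :=
    S_nonneg _ _ fun v _ => E_nonneg hx v
  have h3 : δ * (592 / 3 + 268 / 3 * S d.n (fun v => ∑ κ, x.dα d.n κ v ^ 2 / x.α d.n κ v) [])
      ≤ δ * (200 * (1 + e1)) := mul_le_mul_of_nonneg_left (by linarith) hδ.le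
  linarith

end Vale.Agent.P091.T8.H862

end
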